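import Mathlib

namespace Vale.Agent.P038

open Finset

variable {V : Type*} [DecidableEq V]

/-- image of a set under a set-valued map -/
def img (G : V → Finset V) (S : Finset V) : Finset V := S.biUnion G

lemma mem_img {G : V → Finset V} {S : Finset V} {z : V} :
    z ∈ img G S ↔ ∃ y ∈ S, z ∈ G y := by
  simp [img]

lemma img_union (G : V → Finset V) (S T : Finset V) :
    img G (S ∪ T) = img G S ∪ img G T := by
  ext z; simp only [mem_img, mem_union]; grind

lemma subset_img {G : V → Finset V} (hr : ∀ v, v ∈ G v) (S : Finset V) : S ⊆ img G S :=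
  fun z hz => mem_img.2 ⟨z, hz, hr z⟩

/-- `v` is good -/
def Good (G : V → Finset V) (v : V) : Prop :=
  2 * ((G v).erase v).card ≤ (img G ((G v).erase v)).card

lemma step (G : V → Finset V) (hr : ∀ v, v ∈ G v)
    (IH : ∀ G' : V → Finset V, (∀ v, G' v ⊆ G v) → (∀ v, v ∈ G' v) → (∃ v, G' v ≠ G v) →
      ∃ v, Good G' v)
    (bad : ∀ v, ¬ Good G v) (S T : Finset V) (hT : T ⊆ img G S \ S) (hne : T ≠ img G S \ S) :
    ∃ T' ⊆ img G S \ S, ((img G T' ∪ S).card : ℤ) - 2 * T'.card
      < ((img G T ∪ S).card : ℤ) - 2 * T.card := by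
  classical
  let G' : V → Finset V := fun v => if v ∈ S then G v ∩ (S ∪ T) else G v
  have hsub : ∀ v, G' v ⊆ G v := by
    intro v; simp only [G']; split_ifs
    · exact inter_subset_left
    · exact Subset.rfl
  have hr' : ∀ v, v ∈ G' v := by
    intro v; simp only [G']; split_ifs with h
    · simp [hr v, h]
    · exact hr v
  have hex : ∃ v, G' v ≠ G v := by
    obtain ⟨a, ha, haT⟩ : ∃ a ∈ img G S \ S, a ∉ T := by
      by_contra h
      push Not at h
      exact hne (Subset.antisymm hT h)
    rw [mem_sdiff, mem_img] at ha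
    obtain ⟨⟨s, hs, has⟩, haS⟩ := ha
    refine ⟨s, fun h => ?_⟩
    have : a ∈ G' s := h ▸ has
    simp only [G', hs, if_true, mem_inter, mem_union] at this
    tauto
  obtain ⟨v, hv⟩ := IH G' hsub hr' hex
  have hmono : ∀ P, img G' P ⊆ img G P := by
    intro P z hz
    rw [mem_img] at hz ⊢
    obtain ⟨y, hy, hzy⟩ := hz
    exact ⟨y, hy, hsub y hzy⟩
  by_cases hvS : v ∈ S
  · set P := (G' v).erase v with hP
    set A := G v \ (S ∪ T) with hA
    have hPA : (G v).erase v = P ∪ A := by
      ext z
      simp only [hP, hA, G', hvS, if_true, mem_erase, mem_inter, mem_union, mem_sdiff]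
      grind
    have hdisj : Disjoint P A := by
      rw [disjoint_left]
      intro z hz hz'
      simp only [hP, hA, G', hvS, if_true, mem_erase, mem_inter, mem_union, mem_sdiff] at hz hz'
      tauto
    have h1 : img G' P ⊆ S ∪ img G T := by
      intro z hz
      rw [mem_img] at hz
      obtain ⟨y, hy, hzy⟩ := hz
      by_cases hyS : y ∈ S
      · simp only [G', hyS, if_true, mem_inter, mem_union] at hzy
        rcases hzy.2 with h | h
        · exact mem_union_left _ h
        · exact mem_union_right _ (subset_img hr T h)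
      · simp only [hP, G', hvS, if_true, mem_erase, mem_inter, mem_union] at hy
        have hyT : y ∈ T := by tauto
        exact mem_union_right _ (mem_img.2 ⟨y, hyT, hsub y hzy⟩)
    have h2 : (img G' P).card + (img G A \ (S ∪ img G T)).card ≤ (img G (P ∪ A)).card := by
      rw [← card_union_of_disjoint]
      · apply card_le_card
        rw [img_union]
        exact union_subset_union (hmono P) sdiff_subset
      · rw [disjoint_left]
        intro z hz hz'
        exact (mem_sdiff.1 hz').2 (h1 hz)
    have h3 := bad v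
    unfold Good at h3 hv
    rw [hPA, card_union_of_disjoint hdisj] at h3
    rw [← hP] at hv
    refine ⟨T ∪ A, ?_, ?_⟩
    · apply union_subset hT
      intro z hz
      simp only [hA, mem_sdiff, mem_union] at hz
      rw [mem_sdiff, mem_img]
      exact ⟨⟨v, hvS, hz.1⟩, fun h => hz.2 (Or.inl h)⟩
    · have hd2 : Disjoint T A := by
        rw [disjoint_left]
        intro z hz hz'
        simp only [hA, mem_sdiff, mem_union] at hz'
        tauto
      rw [card_union_of_disjoint hd2]
      have h4 : (img G (T ∪ A) ∪ S).card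
          ≤ (img G T ∪ S).card + (img G A \ (S ∪ img G T)).card := by
        refine le_trans (card_le_card ?_) (card_union_le _ _)
        intro z hz
        simp only [img_union, mem_union, mem_sdiff] at hz ⊢
        tauto
      push_cast
      omega
  · exfalso
    apply bad v
    unfold Good at hv ⊢
    have : G' v = G v := by simp [G', hvS]
    rw [this] at hv
    exact hv.trans (card_le_card (hmono _))

lemma concave (G : V → Finset V) (hr : ∀ v, v ∈ G v)
    (IH : ∀ G' : V → Finset V, (∀ v, G' v ⊆ G v) → (∀ v, v ∈ G' v) → (∃ v, G' v ≠ G v) →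
      ∃ v, Good G' v)
    (bad : ∀ v, ¬ Good G v) (S : Finset V) (hS : img G S ≠ S) :
    (img G (img G S)).card + S.card < 2 * (img G S).card := by
  classical
  set B := img G S \ S with hB
  obtain ⟨T, hT, hmin⟩ := exists_min_image B.powerset
    (fun T => ((img G T ∪ S).card : ℤ) - 2 * T.card) ⟨∅, by simp⟩
  rw [mem_powerset] at hT
  have hTB : T = B := by
    by_contra hne
    obtain ⟨T', hT', hlt⟩ := step G hr IH bad S T hT hne
    have := hmin T' (mem_powerset.2 hT')
    omega
  have hSS : S ⊆ img G S := subset_img hr S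
  have hB0 : (∅ : Finset V) ≠ B := by
    intro h
    apply hS
    apply Subset.antisymm _ hSS
    exact sdiff_eq_empty_iff_subset.1 h.symm
  obtain ⟨T', hT', hlt⟩ := step G hr IH bad S ∅ (empty_subset _) hB0
  have h1 := hmin T' (mem_powerset.2 hT')
  have h2 : img G (img G S) ⊆ img G B ∪ S := by
    intro z hz
    rw [mem_img] at hz
    obtain ⟨y, hy, hzy⟩ := hz
    by_cases hyS : y ∈ S
    · by_cases hzS : z ∈ S
      · exact mem_union_right _ hzS
      · refine mem_union_left _ (subset_img hr B ?_)
        exact mem_sdiff.2 ⟨mem_img.2 ⟨y, hyS, hzy⟩, hzS⟩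
    · exact mem_union_left _ (mem_img.2 ⟨y, mem_sdiff.2 ⟨hy, hyS⟩, hzy⟩)
  have h3 := card_le_card h2
  have h4 : B.card + S.card = (img G S).card := card_sdiff_add_card_eq_card hSS
  have h5 : (img G ∅ ∪ S).card = S.card := by simp [img]
  subst hTB
  simp only [card_empty] at hlt
  omega

end Vale.Agent.P038
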