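import Vale.Agent.P038.Key

namespace Vale.Agent.P038

open Finset

variable {V : Type*} [DecidableEq V] [Fintype V]

/-- antisymmetric extensions of `G` -/
def Ext (G Y : V → Finset V) : Prop :=
  (∀ v, G v ⊆ Y v) ∧ ∀ u v, u ∈ Y v → v ∈ Y u → u = v

/-- total boundary -/
def bd (G Y : V → Finset V) : ℤ := ∑ x, (((img G (Y x)).card : ℤ) - (Y x).card)

/-- the left interior -/
def Inn (G Y : V → Finset V) (x : V) : Finset V :=
  univ.filter (fun y => y = x ∨ ∀ t, x ∈ G t → (y ∈ Y t ∧ y ≠ t))

lemma card_eq_sum_ite (S : Finset V) : (S.card : ℤ) = ∑ z, if z ∈ S then (1 : ℤ) else 0 := by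
  simp

lemma count_le (A B C : V → Finset V)
    (h : ∀ x z, ((if z ∈ A x then 1 else 0) + (if x ∈ B z then 1 else 0)
      + (if z ∈ C x then 1 else 0) : ℤ) ≤ 1 + if x = z then 1 else 0) :
    ∑ x, ((A x).card : ℤ) + ∑ x, ((B x).card : ℤ) + ∑ x, ((C x).card : ℤ)
      ≤ ∑ x : V, ∑ z : V, (1 + if x = z then (1 : ℤ) else 0) := by
  simp only [card_eq_sum_ite]
  rw [sum_comm (f := fun x z => if z ∈ B x then (1 : ℤ) else 0)]
  simp only [← sum_add_distrib]
  exact sum_le_sum fun x _ => sum_le_sum fun z _ => h x z

lemma count_ge (A B C : V → Finset V)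
    (h : ∀ x z, (1 + if x = z then 1 else 0 : ℤ) ≤ ((if z ∈ A x then 1 else 0)
      + (if x ∈ B z then 1 else 0) + (if z ∈ C x then 1 else 0) : ℤ)) :
    ∑ x : V, ∑ z : V, (1 + if x = z then (1 : ℤ) else 0)
      ≤ ∑ x, ((A x).card : ℤ) + ∑ x, ((B x).card : ℤ) + ∑ x, ((C x).card : ℤ) := by
  simp only [card_eq_sum_ite]
  rw [sum_comm (f := fun x z => if z ∈ B x then (1 : ℤ) else 0)]
  simp only [← sum_add_distrib]
  exact sum_le_sum fun x _ => sum_le_sum fun z _ => h x z

lemma inn_mem {G Y : V → Finset V} (hY : Ext G Y) {x y t : V} (hy : y ∈ Inn G Y x)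
    (ht : x ∈ G t) : y ∈ Y t := by
  simp only [Inn, mem_filter, mem_univ, true_and] at hy
  rcases hy with rfl | h
  · exact hY.1 t ht
  · exact (h t ht).1

lemma ext_inn {G Y : V → Finset V} (hY : Ext G Y) :
    Ext G (fun x => img G (Inn G Y x)) := by
  constructor
  · intro v z hz
    exact mem_img.2 ⟨v, by simp [Inn], hz⟩
  · intro z x hz hx
    simp only [mem_img] at hz hx
    obtain ⟨y, hy, hzy⟩ := hz
    obtain ⟨t, ht, hxt⟩ := hx
    have h1 : y ∈ Y t := inn_mem hY hy hxt
    have h2 : t ∈ Y y := inn_mem hY ht hzy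
    have h3 : y = t := hY.2 _ _ h1 h2
    subst h3
    simp only [Inn, mem_filter, mem_univ, true_and] at hy ht
    rcases hy with rfl | hy
    · rcases ht with rfl | ht
      · rfl
      · exact absurd rfl (ht _ hzy).2
    · exact absurd rfl (hy _ hxt).2

lemma bd_inn_le {G Y : V → Finset V} (hr : ∀ v, v ∈ G v) (hY : Ext G Y)
    (hall : ∀ t, ∀ O ⊆ Inc Y t, 0 ≤ sur G (img G (Y t)) O) :
    bd G (Inn G Y) ≤ bd G Y := by
  have hk := key hall
  have hS := ext_inn hY
  have hcap : ∀ x z, z ∈ img G (Inn G Y x) → z ∈ Cap G Y x := by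
    intro x z hz
    obtain ⟨y, hy, hzy⟩ := mem_img.1 hz
    simp only [Cap, mem_filter, mem_univ, true_and]
    intro t ht
    exact mem_img.2 ⟨y, inn_mem hY hy ht, hzy⟩
  have h1 := count_le (fun x => img G (Inn G Y x)) (fun x => img G (Inn G Y x))
    (fun x => img G (Opp G Y x) \ Cap G Y x) (by
      intro x z
      by_cases h3 : z ∈ img G (Opp G Y x) \ Cap G Y x
      · have h4 : z ∉ img G (Inn G Y x) := fun h => (mem_sdiff.1 h3).2 (hcap _ _ h)
        have h5 : x ∉ img G (Inn G Y z) := by
          intro h
          obtain ⟨y, hy, hzy⟩ := mem_img.1 (mem_sdiff.1 h3).1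
          simp only [Opp, Mid, mem_filter, mem_univ, true_and, mem_sdiff] at hy
          exact hy.2 (cap_sub hzy (hcap _ _ h))
        simp only [h3, h4, h5, if_true, if_false]
        split_ifs <;> omega
      · simp only [h3, if_false]
        by_cases hxz : x = z
        · simp only [hxz, if_true]; split_ifs <;> omega
        · have := hS.2 z x
          simp only [hxz, if_false]
          split_ifs with h4 h5
          · exact absurd (this h4 h5).symm hxz
          all_goals omega)
  have h2 := count_le Y Y (Inc Y) (by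
      intro x z
      have := hY.2 z x
      simp only [Inc, mem_filter, mem_univ, true_and]
      by_cases h4 : z ∈ Y x <;> by_cases h5 : x ∈ Y z <;> by_cases hxz : x = z <;>
        simp_all)
  have h3 := count_ge (fun x => img G (Y x)) (Inn G Y) (Mid G Y) (by
      intro y x
      have hyy : y ∈ Y y := hY.1 y (hr y)
      by_cases hxy : y = x
      · subst hxy
        have h4 : y ∈ img G (Y y) := subset_img hr _ hyy
        have h5 : y ∈ Inn G Y y := by simp [Inn]
        simp only [h4, h5, if_true]
        split_ifs <;> omega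
      · simp only [hxy, if_false]
        by_cases h4 : x ∈ img G (Y y)
        · simp only [h4, if_true]; split_ifs <;> omega
        · by_cases h5 : x ∈ Mid G Y y
          · simp only [h5, if_true]; split_ifs <;> omega
          · have h6 : y ∈ Inn G Y x := by
              simp only [Inn, mem_filter, mem_univ, true_and]
              right
              intro t ht
              have h7 : t ∉ Y y := fun h => h4 (mem_img.2 ⟨t, h, ht⟩)
              have h8 : t ∉ Inc Y y := fun h =>
                h5 (mem_sdiff.2 ⟨mem_img.2 ⟨t, h, ht⟩, h4⟩)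
              simp only [Inc, mem_filter, mem_univ, true_and] at h8
              refine ⟨by tauto, ?_⟩
              rintro rfl
              exact h7 hyy
            simp only [h6, if_true]; split_ifs <;> omega)
  unfold bd
  simp only [sum_sub_distrib]
  zify at hk
  linarith

lemma hall_of_min {G Y : V → Finset V} (hr : ∀ v, v ∈ G v) (hY : Ext G Y)
    (hmin : ∀ Y', Ext G Y' → bd G Y ≤ bd G Y') :
    ∀ t, ∀ O ⊆ Inc Y t, 0 ≤ sur G (img G (Y t)) O := by
  intro t O hO
  have hO' : ∀ y ∈ O, y ∉ Y t ∧ t ∉ Y y := by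
    intro y hy
    simpa [Inc] using hO hy
  have htt : t ∈ Y t := hY.1 t (hr t)
  have hE : Ext G (Function.update Y t (Y t ∪ O)) := by
    constructor
    · intro v
      by_cases hv : v = t
      · subst hv
        simp only [Function.update_self]
        exact (hY.1 v).trans subset_union_left
      · simp only [Function.update_of_ne hv]
        exact hY.1 v
    · intro u v hu hv
      by_cases hut : u = t <;> by_cases hvt : v = t
      · rw [hut, hvt]
      · subst hut
        simp only [Function.update_self, Function.update_of_ne hvt, mem_union] at hu hv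
        rcases hv with hv | hv
        · exact hY.2 _ _ hu hv
        · exact absurd hu (hO' v hv).2
      · subst hvt
        simp only [Function.update_self, Function.update_of_ne hut, mem_union] at hu hv
        rcases hu with hu | hu
        · exact hY.2 _ _ hu hv
        · exact absurd hv (hO' u hu).2
      · simp only [Function.update_of_ne hut, Function.update_of_ne hvt] at hu hv
        exact hY.2 _ _ hu hv
  have h := hmin _ hE
  unfold bd at h
  rw [← add_sum_erase univ _ (mem_univ t), ← add_sum_erase univ _ (mem_univ t)] at h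
  have h1 : ∑ x ∈ univ.erase t, (((img G (Function.update Y t (Y t ∪ O) x)).card : ℤ)
      - (Function.update Y t (Y t ∪ O) x).card)
      = ∑ x ∈ univ.erase t, (((img G (Y x)).card : ℤ) - (Y x).card) := by
    apply sum_congr rfl
    intro x hx
    rw [Function.update_of_ne (ne_of_mem_erase hx)]
  rw [h1, Function.update_self] at h
  have h2 : (Y t ∪ O).card = (Y t).card + O.card := by
    apply card_union_of_disjoint
    rw [disjoint_right]
    exact fun y hy => (hO' y hy).1
  have h3 : (img G (Y t ∪ O)).card = (img G O \ img G (Y t)).card + (img G (Y t)).card := by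
    rw [img_union, union_comm, card_sdiff_add_card]
  unfold sur
  omega

lemma exists_not_closed [Nonempty V] {G R : V → Finset V} (hr : ∀ v, v ∈ G v)
    (hout : ∀ v, ∃ z ∈ G v, z ≠ v) (hR : ∀ v, v ∈ R v)
    (hE : Ext G (fun x => img G (R x))) : ∃ x, img G (R x) ≠ R x := by
  by_contra h
  push Not at h
  obtain ⟨S, hS, hmin⟩ := exists_min_image
    ((univ : Finset (Finset V)).filter (fun S => S.Nonempty ∧ img G S ⊆ S)) card
    ⟨univ, by simp⟩
  simp only [mem_filter, mem_univ, true_and] at hS hmin
  have hall : ∀ x ∈ S, S ⊆ R x := by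
    intro x hx
    have h1 := hmin (S ∩ R x) ⟨⟨x, mem_inter.2 ⟨hx, hR x⟩⟩, by
      intro z hz
      obtain ⟨y, hy, hzy⟩ := mem_img.1 hz
      rw [mem_inter] at hy ⊢
      refine ⟨hS.2 (mem_img.2 ⟨y, hy.1, hzy⟩), ?_⟩
      rw [← h x]
      exact mem_img.2 ⟨y, hy.2, hzy⟩⟩
    have h2 : S ∩ R x = S := eq_of_subset_of_card_le inter_subset_left h1
    exact inter_eq_left.1 h2
  obtain ⟨x, hx⟩ := hS.1
  obtain ⟨z, hz, hzx⟩ := hout x
  have hzS : z ∈ S := hS.2 (mem_img.2 ⟨x, hx, hz⟩)
  apply hzx
  apply hE.2
  · simp only [h]; exact hall x hx hzS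
  · simp only [h]; exact hall z hzS hx

lemma no_concave [Nonempty V] (G : V → Finset V) (hr : ∀ v, v ∈ G v)
    (ha : ∀ u v, u ∈ G v → v ∈ G u → u = v) (hout : ∀ v, ∃ z ∈ G v, z ≠ v)
    (hc : ∀ S, img G S ≠ S → (img G (img G S)).card + S.card < 2 * (img G S).card) : False := by
  classical
  obtain ⟨Y, hY, hmin⟩ := exists_min_image
    ((univ : Finset (V → Finset V)).filter (fun Y => Ext G Y)) (bd G)
    ⟨G, by simp only [mem_filter, mem_univ, true_and]; exact ⟨fun _ => Subset.rfl, ha⟩⟩
  simp only [mem_filter, mem_univ, true_and] at hY hmin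
  have h1 := bd_inn_le hr hY (hall_of_min hr hY hmin)
  have hE := ext_inn hY
  have h2 := hmin _ hE
  obtain ⟨x, hx⟩ := exists_not_closed hr hout (R := Inn G Y) (fun v => by simp [Inn]) hE
  have h3 : bd G (fun x => img G (Inn G Y x)) < bd G (Inn G Y) := by
    unfold bd
    apply sum_lt_sum
    · intro z _
      by_cases hz : img G (Inn G Y z) = Inn G Y z
      · simp only [hz]; omega
      · have := hc _ hz
        beta_reduce
        omega
    · refine ⟨x, mem_univ _, ?_⟩
      have := hc _ hx
      beta_reduce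
      omega
  omega

theorem exists_good [Nonempty V] (k : ℕ) : ∀ G : V → Finset V, ∑ v, (G v).card = k →
    (∀ v, v ∈ G v) → (∀ u v, u ∈ G v → v ∈ G u → u = v) → ∃ v, Good G v := by
  induction k using Nat.strong_induction_on with
  | _ k ih =>
    intro G hk hr ha
    by_contra bad
    push Not at bad
    apply no_concave G hr ha
    · intro v
      by_contra h
      push Not at h
      apply bad v
      have : (G v).erase v = ∅ := by
        ext z
        simp only [mem_erase, notMem_empty, iff_false, not_and]
        exact fun h1 h2 => h1 (h z h2)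
      simp [Good, this]
    · apply concave G hr _ bad
      intro G' hsub hr' ⟨v, hv⟩
      apply ih (∑ v, (G' v).card) _ G' rfl hr' (fun u v hu hv => ha u v (hsub v hu) (hsub u hv))
      rw [← hk]
      apply sum_lt_sum (fun v _ => card_le_card (hsub v))
      exact ⟨v, mem_univ _, card_lt_card (ssubset_of_subset_of_ne (hsub v) hv)⟩

theorem seymour {W : Type*} [Finite W] [Nonempty W] (A : W → W → Prop)
    (hirr : ∀ v, ¬ A v v) (hasym : ∀ u v, A u v → ¬ A v u) :
    ∃ v, {u | A v u}.ncard ≤ {w | w ≠ v ∧ ¬ A v w ∧ ∃ u, A v u ∧ A u w}.ncard := by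
  classical
  have := Fintype.ofFinite W
  let G : W → Finset W := fun v => univ.filter (fun u => u = v ∨ A v u)
  obtain ⟨v, hv⟩ := exists_good _ G rfl (fun v => by simp [G]) (by
    intro u v hu hv
    simp only [G, mem_filter, mem_univ, true_and] at hu hv
    rcases hu with h | h
    · exact h
    · rcases hv with h' | h'
      · exact h'.symm
      · exact absurd h' (hasym _ _ h))
  refine ⟨v, ?_⟩
  have h1 : (G v).erase v = univ.filter (fun u => A v u) := by
    ext u
    simp only [G, mem_erase, mem_filter, mem_univ, true_and]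
    constructor
    · tauto
    · intro h
      exact ⟨fun h' => hirr v (h' ▸ h), Or.inr h⟩
  have h2 : img G (univ.filter (fun u => A v u)) ⊆ univ.filter (fun u => A v u) ∪
      univ.filter (fun w => w ≠ v ∧ ¬ A v w ∧ ∃ u, A v u ∧ A u w) := by
    intro z hz
    simp only [G, mem_img, mem_filter, mem_univ, true_and, mem_union] at hz ⊢
    obtain ⟨y, hy, rfl | hz⟩ := hz
    · exact Or.inl hy
    · by_cases h : A v z
      · exact Or.inl h
      · refine Or.inr ⟨?_, h, y, hy, hz⟩
        rintro rfl
        exact hasym _ _ hy hz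
  unfold Good at hv
  rw [h1] at hv
  have h3 := (card_le_card h2).trans (card_union_le _ _)
  rw [← Set.ncard_coe_finset, ← Set.ncard_coe_finset, ← Set.ncard_coe_finset] at h3
  rw [← Set.ncard_coe_finset, ← Set.ncard_coe_finset] at hv
  simp only [coe_filter, mem_univ, true_and] at h3 hv
  omega

end Vale.Agent.P038
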