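import Vale.Agent.P038.Concave

namespace Vale.Agent.P038

open Finset

variable {V : Type*} [DecidableEq V]

/-- surplus of `O` outside `C` -/
def sur (G : V → Finset V) (C O : Finset V) : ℤ := ((img G O \ C).card : ℤ) - O.card

/-- least surplus of a set between `P ∩ K` and `K` -/
def msur (G : V → Finset V) (K C P : Finset V) : ℤ :=
  (K.powerset.filter (fun O => P ∩ K ⊆ O)).inf' ⟨K, by simp⟩ (sur G C)

lemma msur_le (G : V → Finset V) (K C P O : Finset V) (h1 : P ∩ K ⊆ O) (h2 : O ⊆ K) :
    msur G K C P ≤ sur G C O :=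
  inf'_le _ (by simp [h1, h2])

lemma msur_eq (G : V → Finset V) (K C P : Finset V) :
    ∃ O, P ∩ K ⊆ O ∧ O ⊆ K ∧ msur G K C P = sur G C O := by
  obtain ⟨O, hO, h⟩ := exists_mem_eq_inf' (s := K.powerset.filter (fun O => P ∩ K ⊆ O))
    ⟨K, by simp⟩ (sur G C)
  simp only [mem_filter, mem_powerset] at hO
  exact ⟨O, hO.2, hO.1, h⟩

lemma msur_mono (G : V → Finset V) (K C P Q : Finset V) (h : P ⊆ Q) :
    msur G K C P ≤ msur G K C Q := by
  obtain ⟨O, h1, h2, h3⟩ := msur_eq G K C Q
  rw [h3]
  exact msur_le G K C P O ((inter_subset_inter_right h).trans h1) h2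

lemma msur_insert_of_notMem (G : V → Finset V) (K C P : Finset V) (y : V) (hy : y ∉ K) :
    msur G K C (insert y P) = msur G K C P := by
  unfold msur
  congr 1
  rw [insert_inter_of_notMem hy]

lemma msur_univ [Fintype V] (G : V → Finset V) (K C : Finset V) :
    msur G K C univ = sur G C K := by
  obtain ⟨O, h1, h2, h3⟩ := msur_eq G K C univ
  rw [univ_inter] at h1
  rw [h3, Subset.antisymm h2 h1]

lemma sur_exchange (G : V → Finset V) (C C' K O A : Finset V) (hC : C' ⊆ C)
    (hO : ∀ y ∈ O, y ∉ K → G y ⊆ C) :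
    sur G C (A ∪ ((O ∩ K) \ A)) - sur G C A ≤ sur G C' O - sur G C' (O \ ((O ∩ K) \ A)) := by
  set B := (O ∩ K) \ A with hB
  have hBO : B ⊆ O := sdiff_subset.trans inter_subset_left
  have h1 : (O \ B).card + B.card = O.card := card_sdiff_add_card_eq_card hBO
  have h2 : (A ∪ B).card = A.card + B.card := card_union_of_disjoint disjoint_sdiff
  have h3 : (img G (A ∪ B) \ C).card ≤ (img G A \ C).card + (img G B \ (img G A ∪ C)).card := by
    refine le_trans (card_le_card ?_) (card_union_le _ _)
    intro z hz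
    simp only [img_union, mem_union, mem_sdiff] at hz ⊢
    tauto
  have h4 : (img G (O \ B) \ C').card + (img G B \ (img G A ∪ C)).card
      ≤ (img G O \ C').card := by
    rw [← card_union_of_disjoint]
    · apply card_le_card
      intro z hz
      simp only [mem_union, mem_sdiff, mem_img] at hz ⊢
      rcases hz with ⟨⟨y, hy, hzy⟩, hz⟩ | ⟨⟨y, hy, hzy⟩, hz⟩
      · exact ⟨⟨y, hy.1, hzy⟩, hz⟩
      · exact ⟨⟨y, hBO hy, hzy⟩, fun h => hz (Or.inr (hC h))⟩
    · rw [disjoint_left]
      intro z hz hz'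
      simp only [mem_union, mem_sdiff, mem_img] at hz hz'
      obtain ⟨⟨y, ⟨hyO, hyB⟩, hzy⟩, -⟩ := hz
      apply hz'.2
      by_cases hyK : y ∈ K
      · left
        refine ⟨y, ?_, hzy⟩
        by_contra hyA
        exact hyB (mem_sdiff.2 ⟨mem_inter.2 ⟨hyO, hyK⟩, hyA⟩)
      · right
        exact hO y hyO hyK hzy
  unfold sur
  omega

lemma msur_step (G : V → Finset V) (C C' K K' P : Finset V) (y : V) (hC : C' ⊆ C)
    (hK : ∀ y ∈ K', y ∉ K → G y ⊆ C) (hy : y ∈ K') :
    msur G K C (insert y P) - msur G K C P ≤ msur G K' C' (insert y P) - msur G K' C' P := by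
  obtain ⟨O, h1, h2, h3⟩ := msur_eq G K' C' (insert y P)
  obtain ⟨A, h4, h5, h6⟩ := msur_eq G K C P
  have h7 := sur_exchange G C C' K O A hC (fun y hy => hK y (h2 hy))
  have h8 : msur G K C (insert y P) ≤ sur G C (A ∪ ((O ∩ K) \ A)) := by
    apply msur_le
    · intro z hz
      simp only [mem_inter, mem_insert, mem_union, mem_sdiff] at hz ⊢
      by_cases hzA : z ∈ A
      · exact Or.inl hzA
      · right
        refine ⟨⟨?_, hz.2⟩, hzA⟩
        rcases hz.1 with h | h
        · apply h1; simp [h, hy]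
        · exact absurd (h4 (mem_inter.2 ⟨h, hz.2⟩)) hzA
    · exact union_subset h5 (sdiff_subset.trans inter_subset_right)
  have h9 : msur G K' C' P ≤ sur G C' (O \ ((O ∩ K) \ A)) := by
    apply msur_le
    · intro z hz
      simp only [mem_inter, mem_sdiff] at hz ⊢
      refine ⟨h1 (by simp [hz.1, hz.2]), fun h => h.2 (h4 (mem_inter.2 ⟨hz.1, h.1.2⟩))⟩
    · exact sdiff_subset.trans h2
  omega

section Key

variable [Fintype V] (G Y : V → Finset V)

/-- vertices incomparable with `t` -/
def Inc (t : V) : Finset V := univ.filter (fun y => y ∉ Y t ∧ t ∉ Y y)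

/-- new image of the incomparable vertices -/
def Mid (t : V) : Finset V := img G (Inc Y t) \ img G (Y t)

/-- transpose of `Mid` -/
def Opp (x : V) : Finset V := univ.filter (fun y => x ∈ Mid G Y y)

/-- common image -/
def Cap (x : V) : Finset V := univ.filter (fun z => ∀ t, x ∈ G t → z ∈ img G (Y t))

variable {G Y}

lemma cap_sub {x t : V} (h : x ∈ G t) : Cap G Y x ⊆ img G (Y t) := by
  intro z hz
  simp only [Cap, mem_filter, mem_univ, true_and] at hz
  exact hz t h

lemma opp_out {x t : V} (h : x ∈ G t) :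
    ∀ y ∈ Opp G Y x, y ∉ Inc Y t → G y ⊆ img G (Y t) := by
  intro y hy hy'
  simp only [Opp, Mid, Inc, mem_filter, mem_univ, true_and, mem_sdiff, mem_img] at hy hy'
  have h1 : t ∉ Y y := fun h' => hy.2 ⟨t, h', h⟩
  have h2 : y ∈ Y t := by tauto
  intro z hz
  exact mem_img.2 ⟨y, h2, hz⟩

lemma sur_opp_nonneg (hall : ∀ t, ∀ O ⊆ Inc Y t, 0 ≤ sur G (img G (Y t)) O) (x : V) :
    ∀ O ⊆ Opp G Y x, 0 ≤ sur G (Cap G Y x) O := by
  intro O
  induction O using Finset.strongInduction with
  | H O ih =>
    intro hO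
    rcases O.eq_empty_or_nonempty with rfl | ⟨y, hy⟩
    · simp [sur, img]
    · have hy' := hO hy
      simp only [Opp, Mid, mem_filter, mem_univ, true_and, mem_sdiff, mem_img] at hy'
      obtain ⟨⟨t, ht, hxt⟩, -⟩ := hy'
      have hyt : y ∈ Inc Y t := by
        simp only [Inc, mem_filter, mem_univ, true_and] at ht ⊢
        tauto
      have h1 := sur_exchange G (img G (Y t)) (Cap G Y x) (Inc Y t) O ∅ (cap_sub hxt)
        (fun y hy => opp_out hxt y (hO hy))
      simp only [empty_union, sdiff_empty] at h1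
      have h2 := hall t (O ∩ Inc Y t) inter_subset_right
      have h3 : sur G (img G (Y t)) ∅ = 0 := by simp [sur, img]
      have h4 := ih (O \ (O ∩ Inc Y t))
        (sdiff_ssubset inter_subset_left ⟨y, mem_inter.2 ⟨hy, hyt⟩⟩) (sdiff_subset.trans hO)
      omega

lemma key_induct (hall : ∀ t, ∀ O ⊆ Inc Y t, 0 ≤ sur G (img G (Y t)) O) (P : Finset V) :
    ∑ t, msur G (Inc Y t) (img G (Y t)) P ≤ ∑ x, msur G (Opp G Y x) (Cap G Y x) P := by
  induction P using Finset.induction_on with
  | empty =>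
    calc ∑ t, msur G (Inc Y t) (img G (Y t)) ∅ ≤ 0 := by
          apply sum_nonpos
          intro t _
          refine (msur_le G _ _ ∅ ∅ (by simp) (by simp)).trans ?_
          simp [sur, img]
      _ ≤ _ := by
          apply sum_nonneg
          intro x _
          obtain ⟨O, -, h2, h3⟩ := msur_eq G (Opp G Y x) (Cap G Y x) ∅
          rw [h3]
          exact sur_opp_nonneg hall x O h2
  | insert y P _ ih =>
    have hH : ∀ s : Finset (Inc Y y),
        s.card ≤ (s.biUnion (fun t => G t.1 \ img G (Y y))).card := by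
      intro s
      have h1 := hall y (s.map (Function.Embedding.subtype _)) (by
        intro t ht
        simp only [mem_map, Function.Embedding.coe_subtype] at ht
        obtain ⟨a, -, rfl⟩ := ht
        exact a.2)
      unfold sur at h1
      rw [card_map] at h1
      have h2 : img G (s.map (Function.Embedding.subtype _)) \ img G (Y y)
          = s.biUnion (fun t => G t.1 \ img G (Y y)) := by
        ext z
        simp only [mem_sdiff, mem_img, mem_map, Function.Embedding.coe_subtype, mem_biUnion]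
        constructor
        · rintro ⟨⟨t, ⟨a, ha, rfl⟩, hz⟩, hz'⟩
          exact ⟨a, ha, hz, hz'⟩
        · rintro ⟨a, ha, hz, hz'⟩
          exact ⟨⟨a, ⟨a, ha, rfl⟩, hz⟩, hz'⟩
      rw [h2] at h1
      omega
    obtain ⟨f, hf, hf'⟩ := (all_card_le_biUnion_card_iff_exists_injective _).1 hH
    let d : V → ℤ := fun t =>
      msur G (Inc Y t) (img G (Y t)) (insert y P) - msur G (Inc Y t) (img G (Y t)) P
    let e : V → ℤ := fun x =>
      msur G (Opp G Y x) (Cap G Y x) (insert y P) - msur G (Opp G Y x) (Cap G Y x) P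
    have he : ∀ x, 0 ≤ e x := fun x => sub_nonneg.2 (msur_mono _ _ _ _ _ (subset_insert _ _))
    have h1 : ∑ t, d t = ∑ t : Inc Y y, d t := by
      rw [sum_coe_sort (Inc Y y) d]
      symm
      apply sum_subset (subset_univ _)
      intro t _ ht
      have : y ∉ Inc Y t := by
        simp only [Inc, mem_filter, mem_univ, true_and] at ht ⊢
        tauto
      simp [d, msur_insert_of_notMem _ _ _ _ _ this]
    have h2 : ∑ t : Inc Y y, d t ≤ ∑ t : Inc Y y, e (f t) := by
      apply sum_le_sum
      intro t _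
      have h := hf' t
      rw [mem_sdiff] at h
      apply msur_step G _ _ _ _ P y (cap_sub h.1) (opp_out h.1)
      simp only [Opp, Mid, mem_filter, mem_univ, true_and, mem_sdiff]
      exact ⟨mem_img.2 ⟨t, t.2, h.1⟩, h.2⟩
    have h3 : ∑ t : Inc Y y, e (f t) ≤ ∑ x, e x := by
      rw [← sum_image (s := univ) (g := f) (f := e) (fun a _ b _ h => hf h)]
      exact sum_le_sum_of_subset_of_nonneg (subset_univ _) (fun x _ _ => he x)
    have h4 : ∑ t, d t ≤ ∑ x, e x := by omega
    simp only [d, e, sum_sub_distrib] at h4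
    omega

lemma sum_card_transpose (A : V → Finset V) :
    ∑ x, (univ.filter (fun y => x ∈ A y)).card = ∑ y, (A y).card := by
  simp only [card_filter]
  rw [sum_comm]
  apply sum_congr rfl
  intro y _
  rw [← card_filter]
  congr 1
  ext x; simp

lemma key (hall : ∀ t, ∀ O ⊆ Inc Y t, 0 ≤ sur G (img G (Y t)) O) :
    2 * ∑ t, (Mid G Y t).card
      ≤ ∑ x, (img G (Opp G Y x) \ Cap G Y x).card + ∑ t, (Inc Y t).card := by
  have h := key_induct hall univ
  simp only [msur_univ, sur, sum_sub_distrib] at h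
  have h1 : ∑ x, (Opp G Y x).card = ∑ y, (Mid G Y y).card := sum_card_transpose _
  have h2 : ∑ t, ((img G (Inc Y t) \ img G (Y t)).card : ℤ) = ∑ t, ((Mid G Y t).card : ℤ) := rfl
  rw [h2] at h
  zify at h1 ⊢
  linarith

end Key

end Vale.Agent.P038
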